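import Vale.Agent.P032.S5.H378.BetaRaw
import Vale.Agent.P032.Words.H984.Sep22
import Vale.Agent.P032.Words.H984.L3W

/-!
# P032: a centre with one special end of class BETA: the facts `Tab` and `Has22`

`sep22`, `l2w`, `l3w`: the one-circle facts (helper984).  `BetaC.betaZ`: the circle of a centre with a
special end of class BETA.  `BetaC.tab`, `BetaC.has22`: the only inputs left are the counts `T0`, `HasP`
(two circles).
-/

open Set Filter Topology Metric

noncomputable section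

namespace Vale.Agent.P032.S5.H378

open Vale.Agent.P032.Six Vale.Agent.P032.Words Vale.Agent.P032.S5.H767 Vale.Agent.P032.S5.H349
open Vale.Agent.P032.S5.H448

theorem sep22 : Sep22 := by
  intro X V V' Q Q' W W' S S' R h02 h13 h12 h03 h1 h2 h3
  exact Pot.sep_gen R (v := V') h02.1 h02.2.1 (fun h => h02.2.2.1 (Pot.E6.symm h)) h02.2.2.2 h1 h2 h3
    ⟨h13.1, h13.2.1, h13.2.2.2⟩ ⟨h12.1, h12.2.1, h12.2.2.2⟩ ⟨h03.1, h03.2.1, h03.2.2.2⟩

theorem l2w : L2W := fun _ _ _ R h1 h2 h3 h4 => R.L2 h1 h2 h3 h4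

theorem l3w : L3W := fun _ _ _ _ R h1 h2 h3 h4 h5 h6 h7 h8 => R.L3le h1 h2 h3 h4 h5 h6 h7 h8

theorem _root_.Vale.Agent.P032.Words.RawW.wrd {X : Fin 4 → Set ℝ} (R : RawW X) : Wrd X :=
  ⟨R.closed, R.per, R.ac, R.anti, R.ex, fun u _ _ h1 h2 h3 h4 => single_of_SCw (R.g4 u) h1 h2 h3 h4⟩

variable {U : Fin 6 → Set ℂ} {T : ℂ → Set (Fin 6)} {z v : ℂ} {a b c d e f : Fin 6} {τ V : ℝ}

/-- **(A), (B), (C) at a centre with one special end**, all one-circle facts inserted -/
theorem BetaZ.tab' (B : BetaZ U T z a b c d e f V) (h4 : ∀ z, (T z).ncard ≤ 4)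
    (K : T0 T z a b c d e f) : Tab T z := B.tab h4 l2w l3w sep22 K

namespace BetaC

/-- the circle of a centre with a special end of class BETA -/
theorem betaZ (B : BetaC U T z v a b c d e f τ) (hV : pt z V = v) :
    BetaZ U T z a b c d e f V where
  C := B.C
  dp := B.dp
  wrd := (B.rawV hV).rawW.wrd
  sp := B.sp hV
  hV := by
    rw [hV, B.card_v]
    decide
  h3 := B.h3 hV

/-- **the facts `Tab` at a centre with a special end of class BETA** -/
theorem tab (B : BetaC U T z v a b c d e f τ) (h4 : ∀ z, (T z).ncard ≤ 4)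
    (K : T0 T z a b c d e f) : Tab T z := by
  obtain ⟨V, hV⟩ := exists_pt B.hvz
  exact (B.betaZ hV.symm).tab' h4 K

theorem has22 (B : BetaC U T z v a b c d e f τ) (h4 : ∀ z, (T z).ncard ≤ 4)
    (K : HasP T z a b c d e f) : Has22 T z := by
  obtain ⟨V, hV⟩ := exists_pt B.hvz
  exact (B.betaZ hV.symm).has22 h4 K

end BetaC

end Vale.Agent.P032.S5.H378
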