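import Vale.Agent.P032.S5.H378.BetaTab
import Vale.Agent.P032.S5.H767.Exc
import Vale.Agent.P032.S5.H496.List
import Vale.Agent.P032.Words.H378.RawV

/-!
# P032: the word of a centre with one special end of class BETA

`z = {ab|cd}`, `v ∈ S(z)` a two-pair centre with the pairs `ac | be`; all other points of `S(z)` are
admissible (`Adm`, helper767).  The letter sets of `S(z)` form a `RawV` word (`BetaC.rawV`), hence they
satisfy the weak local rules (`BetaC.rawW`); `v` is an end of the type `e|A` (`BetaC.sp`).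
-/

open Set Filter Topology Metric

noncomputable section

namespace Vale.Agent.P032.S5.H378

open Vale.Agent.P032.Six Vale.Agent.P032.Words Vale.Agent.P032.S5.H767 Vale.Agent.P032.S5.H349

variable {U : Fin 6 → Set ℂ} {T : ℂ → Set (Fin 6)} {z v : ℂ} {a b c d e f : Fin 6} {τ V : ℝ}

/-- a centre with one special end of class BETA -/
structure BetaC (U : Fin 6 → Set ℂ) (T : ℂ → Set (Fin 6)) (z v : ℂ) (a b c d e f : Fin 6) (τ : ℝ) :
    Prop where
  C : Ctr U T z a b c d e f
  dp : DPt T z a b c d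
  C' : Ctr U T v a c b e d f
  hvz : dist v z = 1
  hτ : τ = 1 ∨ τ = -1
  h1 : ∀ᶠ t : ℝ in 𝓝[>] 0, T (hb z v τ t) = {a, b}
  h2 : ∀ᶠ t : ℝ in 𝓝[>] 0, e ∈ T (hb z v (-τ) t) ∧ ¬ ({a, b} : Set (Fin 6)) ⊆ T (hb z v (-τ) t)
  adm : ∀ y, dist y z = 1 → y ≠ v → Adm T z a b c d e f y
  hD : ∀ y y', dist y z = 1 → dist y' z = 1 → dist y y' = 1 → Hx T z a b e f y →
    ¬ Hx T z c d e f y'

/-- faces at a two-pair centre -/
theorem fc_pairs {p q r s m n : Fin 6} (C : Ctr U T v p q r s m n) {F : Set (Fin 6)} (hF : F ⊆ T v)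
    (h1 : ¬ ({p, q} : Set (Fin 6)) ⊆ F) (h2 : ¬ ({r, s} : Set (Fin 6)) ⊆ F) : Fc T v F := by
  have key : ∀ (k : ℕ) (w : ℂ), (T w).ncard ≤ k → dist w v = 1 → T w ⊆ F → False := by
    intro k
    induction k with
    | zero =>
      intro w hk hw hs
      by_cases hc : ∀ᶠ q in 𝓝[sphere v 1] w, T q = T w
      · rcases C.pairs w hw hc (hs.trans hF) with h5 | h5
        · exact h1 (h5 ▸ hs)
        · exact h2 (h5 ▸ hs)
      · apply hc
        filter_upwards [mem_nhdsWithin_of_mem_nhds (C.irr.nhd w)] with q hq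
        have h3 : T w = ∅ := by
          rw [← Set.ncard_eq_zero (Set.toFinite _)]; omega
        rw [h3] at hq ⊢
        exact Set.subset_empty_iff.1 hq
    | succ k ih =>
      intro w hk hw hs
      by_cases hc : ∀ᶠ q in 𝓝[sphere v 1] w, T q = T w
      · rcases C.pairs w hw hc (hs.trans hF) with h5 | h5
        · exact h1 (h5 ▸ hs)
        · exact h2 (h5 ▸ hs)
      · have h3 : ∃ᶠ q in 𝓝[sphere v 1] w, ¬ T q = T w := Filter.not_eventually.1 hc
        have h5 : ∀ᶠ q in 𝓝[sphere v 1] w, T q ⊆ T w :=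
          mem_nhdsWithin_of_mem_nhds (C.irr.nhd w)
        have h6 : ∀ᶠ q in 𝓝[sphere v 1] w, q ∈ sphere v 1 := self_mem_nhdsWithin
        obtain ⟨q, hq1, hq2, hq3⟩ := (h3.and_eventually (h5.and h6)).exists
        have h4 := Set.ncard_lt_ncard (ssubset_of_subset_of_ne hq2 hq1) (Set.toFinite _)
        exact ih q (by omega) hq3 (hq2.trans hs)
  exact fun w hw hs => key _ w le_rfl hw hs

/-- three colours -/
theorem eq_three {S : Set (Fin 6)} {p q r : Fin 6} (h3 : S.ncard ≤ 3) (hp : p ∈ S) (hq : q ∈ S)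
    (hr : r ∈ S) (pq : p ≠ q) (pr : p ≠ r) (qr : q ≠ r) : S = {p, q, r} := by
  have h1 : ({p, q, r} : Set (Fin 6)) ⊆ S := by
    rintro m (rfl | rfl | rfl)
    exacts [hp, hq, hr]
  have h4 : ({p, q, r} : Set (Fin 6)).ncard = 3 := Set.ncard_eq_three.2 ⟨p, q, r, pq, pr, qr, rfl⟩
  exact (Set.eq_of_subset_of_ncard_le h1 (by omega) (Set.toFinite _)).symm

namespace BetaC

theorem letV (B : BetaC U T z v a b c d e f τ) {l : Fin 4} (hl : v ∈ Lt T z a b c d e f l) :
    l = 0 ∨ l = 2 := by
  obtain ⟨⟨ab, ac, ad, ae, af⟩, ⟨bc, bd, be, bf⟩, ⟨cd, ce, cf⟩, ⟨de, df⟩, ef⟩ := B.C.sep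
  have h1 := Lt_col B.C.irr hl
  rw [B.C'.pal] at h1
  fin_cases l
  · exact Or.inl rfl
  · exfalso
    have := h1 (show f ∈ ({f} : Set (Fin 6)) from rfl)
    simp only [mem_insert_iff, mem_singleton_iff] at this
    rcases this with h | h | h | h
    exacts [af h.symm, cf h.symm, bf h.symm, ef h.symm]
  · exact Or.inr rfl
  · exfalso
    have := h1 (show d ∈ ({c, d} : Set (Fin 6)) from Or.inr rfl)
    simp only [mem_insert_iff, mem_singleton_iff] at this
    rcases this with h | h | h | h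
    exacts [ad h.symm, cd h.symm, bd h.symm, de h]

theorem le_pair (B : BetaC U T z v a b c d e f τ) {y : ℂ} (hy : y ≠ v) {l : Fin 4}
    (hl : y ∈ Lt T z a b c d e f l) (h2 : 2 ≤ l.val) : (T y).ncard ≤ 3 :=
  B.C.le_of_pair (B.adm y (Lt_dist hl) hy) hl h2

/-- no two common letters of `v` and a neighbour -/
theorem noswapV (B : BetaC U T z v a b c d e f τ) {y : ℂ} (hy : dist v y = 1) {l m : Fin 4}
    (hlm : l ≠ m) (h1 : v ∈ Lt T z a b c d e f l) (h2 : v ∈ Lt T z a b c d e f m)
    (h3 : y ∈ Lt T z a b c d e f l) (h4 : y ∈ Lt T z a b c d e f m) : False := by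
  obtain ⟨⟨ab, ac, ad, ae, af⟩, ⟨bc, bd, be, bf⟩, ⟨cd, ce, cf⟩, ⟨de, df⟩, ef⟩ := B.C.sep
  have hyv : y ≠ v := by
    rintro rfl; rw [dist_self] at hy; exact zero_ne_one hy
  have key : y ∈ Lt T z a b c d e f 0 → y ∈ Lt T z a b c d e f 2 → False := by
    intro k0 k2
    have hc := B.le_pair hyv k2 (by decide)
    have ka := sub_of_closure B.C.irr (P := {a, b}) k2
    have hT := eq_three hc (ka (Or.inl rfl)) (ka (Or.inr rfl)) k0.2 ab ae be
    refine lemmaFz B.C.irr (p := v) (u := y) (t := c) B.hvz k0.1 hy (fc_three B.C.irr hc) ?_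
      (by rw [B.C.pal]; simp)
    rw [B.C'.pal, hT]
    rintro m (rfl | rfl | rfl | rfl)
    · right; simp
    · left; rfl
    · right; simp
    · right; simp
  rcases B.letV h1 with rfl | rfl <;> rcases B.letV h2 with rfl | rfl
  · exact hlm rfl
  · exact key h3 h4
  · exact key h4 h3
  · exact hlm rfl

/-- the neighbour of `v` with the letter `A` shares no other letter with its other neighbour -/
theorem endV (B : BetaC U T z v a b c d e f τ) {y y' : ℂ} (hy : dist v y = 1) (hyy : dist y y' = 1)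
    (hne : y' ≠ v) (hne2 : y' + v ≠ 2 * y) {m : Fin 4} (hm : m ≠ 2)
    (h1 : v ∈ Lt T z a b c d e f 2) (h2 : y ∈ Lt T z a b c d e f 2)
    (h3 : y ∈ Lt T z a b c d e f m) (h4 : y' ∈ Lt T z a b c d e f m) : False := by
  obtain ⟨⟨ab, ac, ad, ae, af⟩, ⟨bc, bd, be, bf⟩, ⟨cd, ce, cf⟩, ⟨de, df⟩, ef⟩ := B.C.sep
  have hyv : y ≠ v := by
    rintro rfl; rw [dist_self] at hy; exact zero_ne_one hy
  have hc := B.le_pair hyv h2 (by decide)
  have ka := sub_of_closure B.C.irr (P := {a, b}) h2
  have hm3 : ∀ m : Fin 4, m ≠ 2 → m = 0 ∨ m = 1 ∨ m = 3 := by decide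
  rcases hm3 m hm with rfl | rfl | rfl
  · refine B.noswapV hy (l := 0) (m := 2) (by decide) ⟨B.hvz, ?_⟩ h1 h3 h2
    rw [B.C'.pal]; simp
  · have hT := eq_three hc (ka (Or.inl rfl)) (ka (Or.inr rfl)) h3.2 ab af bf
    rcases lemmaF B.C.irr (p := y) (u := v) (v := y') (t := f) (s := {a, b})
      (by rw [dist_comm]; exact hy) (fc_pairs B.C' (by
        rw [B.C'.pal]
        rintro m (rfl | rfl) <;> simp) (fun h => by
        rcases h (Or.inr rfl) with h5 | h5
        exacts [ac h5.symm, bc h5.symm]) (fun h => by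
        rcases h (Or.inr rfl) with h5 | h5
        exacts [ae h5.symm, be h5.symm])) (by
        rw [hT]
        rintro m (rfl | rfl | rfl)
        · right; simp
        · right; simp
        · left; rfl) hyy (B.C.irr.sub _ h4.2) with h5 | h5
    · exact hne h5
    · exact hne2 h5
  · exact B.C.noAC hc h2 h3

/-- **The word of a centre with a special end of class BETA.** -/
theorem rawV (B : BetaC U T z v a b c d e f τ) (hV : pt z V = v) :
    RawV (Xs T z a b c d e f) V := by
  have hv : ∀ u, pt z u = v ∨ Adm T z a b c d e f (pt z u) := fun u => by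
    by_cases h : pt z u = v
    · exact Or.inl h
    · exact Or.inr (B.adm _ (dist_pt z u) h)
  have letv : ∀ {u : ℝ} {l : Fin 4}, pt z u = v → u ∈ Xs T z a b c d e f l → l = 0 ∨ l = 2 := by
    intro u l h hl
    have h1 : pt z u ∈ Lt T z a b c d e f l := hl
    rw [h] at h1
    exact B.letV h1
  have hle : ∀ {u : ℝ} {l : Fin 4}, pt z u ≠ v → u ∈ Xs T z a b c d e f l → 2 ≤ l.val →
      (T (pt z u)).ncard ≤ 3 := fun h hl h2 => B.le_pair h hl h2
  have hD' : ∀ y y', dist y z = 1 → dist y' z = 1 → dist y y' = 1 → Hx T z c d e f y →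
      ¬ Hx T z a b e f y' := fun y y' h1 h2 h3 h4 h5 =>
    B.hD y' y h2 h1 (by rw [dist_comm]; exact h3) h5 h4
  refine
    { closed := B.C.x_closed
      cover := B.C.x_cover
      per := B.C.x_per
      anti := ?_
      ac := ?_
      two := ?_
      own := fun u l h h' => B.C.x_own h h'
      own' := fun u l h h' => B.C.x_own' h h'
      swap := ?_
      dbl := ?_
      spv := fun l hl => letv hV hl
      endp := ?_
      endm := ?_ }
  · intro u h2 h3
    by_cases h : pt z (u + 3) = v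
    · rcases letv h h3 with h5 | h5 <;> exact absurd h5 (by decide)
    · refine B.C.x_anti' (hle h h3 (by decide)) h3 ?_
      have e1 : u + 3 + 3 = u + 6 := by ring
      rw [e1, B.C.x_per]
      exact h2
  · intro u h2 h3
    by_cases h : pt z u = v
    · rcases letv h h3 with h5 | h5 <;> exact absurd h5 (by decide)
    · exact B.C.x_ac (hle h h2 (by decide)) h2 h3
  · intro u l m n hl hm hn
    rcases hv u with h | h3 | hx | hx
    · rcases letv h hl with rfl | rfl <;> rcases letv h hm with rfl | rfl <;>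
        rcases letv h hn with rfl | rfl <;> simp
    · exact B.C.x_two h3 hl hm hn
    · rcases B.C.hx_letter hx hl with rfl | rfl <;> rcases B.C.hx_letter hx hm with rfl | rfl <;>
        rcases B.C.hx_letter hx hn with rfl | rfl <;> simp
    · rcases B.C.hx_letter' hx hl with rfl | rfl <;> rcases B.C.hx_letter' hx hm with rfl | rfl <;>
        rcases B.C.hx_letter' hx hn with rfl | rfl <;> simp
  · intro u l m h1 h2 h4 h5
    by_contra hlm
    rcases hv u with h | h
    · have d1 := dist_pt_one z u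
      have k1 : pt z u ∈ Lt T z a b c d e f l := h1
      have k4 : pt z u ∈ Lt T z a b c d e f m := h4
      rw [h] at d1 k1 k4
      exact B.noswapV d1 hlm k1 k4 h2 h5
    · rcases hv (u + 1) with h' | h'
      · have d1 := dist_pt_one z u
        have k2 : pt z (u + 1) ∈ Lt T z a b c d e f l := h2
        have k5 : pt z (u + 1) ∈ Lt T z a b c d e f m := h5
        rw [h', dist_comm] at d1
        rw [h'] at k2 k5
        exact B.noswapV d1 hlm k2 k5 h1 h4
      · exact B.C.noswap_adm hlm (dist_pt_one z u) h h'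
          (B.hD _ _ (dist_pt z u) (dist_pt z (u + 1)) (dist_pt_one z u))
          (hD' _ _ (dist_pt z u) (dist_pt z (u + 1)) (dist_pt_one z u)) h1 h4 h2 h5
  · intro u l m hu hlm h1 h2 h4 h5
    have off : ∀ k : ℤ, pt z (u + k) ≠ v := by
      intro k h
      obtain ⟨n, hn⟩ := (pt_iff (z := z)).1 (h.trans hV.symm)
      exact hu (6 * n - k) (by push_cast; linarith)
    have o0 : Adm T z a b c d e f (pt z u) := by
      have := off 0
      rw [Int.cast_zero, add_zero] at this
      exact (hv u).resolve_left this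
    have o1 : Adm T z a b c d e f (pt z (u + 1)) := by
      have := off 1
      rw [Int.cast_one] at this
      exact (hv _).resolve_left this
    have o2 : Adm T z a b c d e f (pt z (u + 2)) := by
      have := off 2
      rw [Int.cast_ofNat] at this
      exact (hv _).resolve_left this
    obtain ⟨k1, k2⟩ := pt_off z u
    have e1 : u + 1 + 1 = u + 2 := by ring
    have k3 := dist_pt_one z (u + 1)
    rw [e1] at k3
    exact (B.C.dbl_adm hlm (by rw [dist_comm]; exact dist_pt_one z u) k3 k1 k2 o1 o0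
      o2 h2 h1 h4 h5).1
  · intro m hm h1 h2 h3 h4
    obtain ⟨k1, k2⟩ := pt_off z V
    have d1 := dist_pt_one z V
    have d2 := dist_pt_one z (V + 1)
    have e1 : V + 1 + 1 = V + 2 := by ring
    rw [e1] at d2
    have k0 : pt z V ∈ Lt T z a b c d e f 2 := h1
    rw [hV] at k0 k1 k2 d1
    exact B.endV d1 d2 k1 k2 hm k0 h2 h3 h4
  · intro m hm h1 h2 h3 h4
    obtain ⟨k1, k2⟩ := pt_off z (V - 2)
    have d1 := dist_pt_one z (V - 1)
    have d2 := dist_pt_one z (V - 2)
    have e1 : V - 1 + 1 = V := by ring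
    have e2 : V - 2 + 1 = V - 1 := by ring
    have e3 : V - 2 + 2 = V := by ring
    rw [e1] at d1
    rw [e2] at d2 k2
    rw [e3] at k1 k2
    have k0 : pt z V ∈ Lt T z a b c d e f 2 := h1
    rw [hV] at k0 k1 k2 d1
    refine B.endV (by rw [dist_comm]; exact d1) (by rw [dist_comm]; exact d2) k1.symm ?_ hm k0 h2 h3 h4
    rw [add_comm]; exact k2

/-- **the weak local rules at a centre with a special end of class BETA** -/
theorem rawW (B : BetaC U T z v a b c d e f τ) : RawW (Xs T z a b c d e f) := by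
  obtain ⟨V, hV⟩ := exists_pt B.hvz
  exact (B.rawV hV.symm).rawW

/-- the half branches in the angle coordinate -/
theorem ev_right {z v : ℂ} {V : ℝ} (hV : pt z V = v) {p : ℂ → Prop}
    (h : ∀ᶠ t : ℝ in 𝓝[>] 0, p (hb z v 1 t)) : ∀ᶠ u in 𝓝[>] V, p (pt z u) := by
  have hc : Continuous fun u : ℝ => (u - V) * (Real.pi / 3) := by fun_prop
  have h1 : Tendsto (fun u : ℝ => (u - V) * (Real.pi / 3)) (𝓝[>] V) (𝓝[>] 0) := by
    refine tendsto_nhdsWithin_of_tendsto_nhds_of_eventually_within _ ?_ ?_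
    · have := hc.tendsto V
      rw [sub_self, zero_mul] at this
      exact this.mono_left nhdsWithin_le_nhds
    · filter_upwards [self_mem_nhdsWithin] with u hu
      have hu : V < u := hu
      have hp := Real.pi_pos
      show 0 < (u - V) * (Real.pi / 3)
      exact mul_pos (by linarith) (by linarith)
  filter_upwards [h1.eventually h] with u hu
  have e : hb z v 1 ((u - V) * (Real.pi / 3)) = pt z u := by
    rw [← hV, hb]
    unfold pt
    rw [add_sub_cancel_left, ← cis_add]
    congr 2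
    ring
  rw [e] at hu
  exact hu

theorem ev_left {z v : ℂ} {V : ℝ} (hV : pt z V = v) {p : ℂ → Prop}
    (h : ∀ᶠ t : ℝ in 𝓝[>] 0, p (hb z v (-1) t)) : ∀ᶠ u in 𝓝[<] V, p (pt z u) := by
  have hc : Continuous fun u : ℝ => (V - u) * (Real.pi / 3) := by fun_prop
  have h1 : Tendsto (fun u : ℝ => (V - u) * (Real.pi / 3)) (𝓝[<] V) (𝓝[>] 0) := by
    refine tendsto_nhdsWithin_of_tendsto_nhds_of_eventually_within _ ?_ ?_
    · have := hc.tendsto V
      rw [sub_self, zero_mul] at this
      exact this.mono_left nhdsWithin_le_nhds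
    · filter_upwards [self_mem_nhdsWithin] with u hu
      have hu : u < V := hu
      have hp := Real.pi_pos
      show 0 < (V - u) * (Real.pi / 3)
      exact mul_pos (by linarith) (by linarith)
  filter_upwards [h1.eventually h] with u hu
  have e : hb z v (-1) ((V - u) * (Real.pi / 3)) = pt z u := by
    rw [← hV, hb]
    unfold pt
    rw [add_sub_cancel_left, ← cis_add]
    congr 2
    ring
  rw [e] at hu
  exact hu

/-- **The special end as an end of the word.** -/
theorem sp (B : BetaC U T z v a b c d e f τ) (hV : pt z V = v) :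
    End (Xs T z a b c d e f) 0 2 V := by
  obtain ⟨⟨ab, ac, ad, ae, af⟩, ⟨bc, bd, be, bf⟩, ⟨cd, ce, cf⟩, ⟨de, df⟩, ef⟩ := B.C.sep
  have m0 : V ∈ Xs T z a b c d e f 0 := by
    show dist (pt z V) z = 1 ∧ e ∈ T (pt z V)
    rw [hV, B.C'.pal]
    exact ⟨B.hvz, by simp⟩
  have only : ∀ l, V ∈ Xs T z a b c d e f l → l = 0 ∨ l = 2 := by
    intro l hl
    have h1 : pt z V ∈ Lt T z a b c d e f l := hl
    rw [hV] at h1
    exact B.letV h1
  have n0 : ∀ u : ℝ, T (pt z u) = {a, b} → u ∉ Xs T z a b c d e f 0 := by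
    intro u hu h0
    have h1 : e ∈ T (pt z u) := h0.2
    rw [hu] at h1
    rcases h1 with h | h
    exacts [ae h.symm, be h.symm]
  have n2 : ∀ u : ℝ, (e ∈ T (pt z u) ∧ ¬ ({a, b} : Set (Fin 6)) ⊆ T (pt z u)) →
      u ∉ Xs T z a b c d e f 2 := fun u hu h2 =>
    hu.2 (sub_of_closure B.C.irr (P := {a, b}) h2)
  have h1 := B.h1
  have h2 := B.h2
  rcases B.hτ with rfl | rfl
  · left
    have k1 := ev_right hV (p := fun y => T y = {a, b}) h1
    have k2 := ev_left hV
      (p := fun y => e ∈ T y ∧ ¬ ({a, b} : Set (Fin 6)) ⊆ T y) h2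
    exact ⟨m0, mem_closure_right k1, only, k2.mono n2, k1.mono n0⟩
  · right
    rw [neg_neg] at h2
    have k1 := ev_left hV (p := fun y => T y = {a, b}) h1
    have k2 := ev_right hV
      (p := fun y => e ∈ T y ∧ ¬ ({a, b} : Set (Fin 6)) ⊆ T y) h2
    exact ⟨mem_closure_left k1, m0, fun l hl => (only l hl).symm, k1.mono n0, k2.mono n2⟩

/-- the pair letters off the special end are carried by points with at most three colours -/
theorem h3 (B : BetaC U T z v a b c d e f τ) (hV : pt z V = v) (u : ℝ)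
    (hu : u ∈ Xs T z a b c d e f 2 ∨ u ∈ Xs T z a b c d e f 3) :
    (T (pt z u)).ncard ≤ 3 ∨ E6 u V := by
  by_cases h : pt z u = v
  · exact Or.inr ((pt_iff (z := z)).1 (h.trans hV.symm))
  · left
    rcases hu with hu | hu
    · exact B.le_pair (l := 2) h hu (by decide)
    · exact B.le_pair (l := 3) h hu (by decide)

theorem card_v (B : BetaC U T z v a b c d e f τ) : (T v).ncard = 4 := by
  obtain ⟨⟨ab, ac, ad, ae, af⟩, ⟨bc, bd, be, bf⟩, ⟨cd, ce, cf⟩, ⟨de, df⟩, ef⟩ := B.C.sep
  rw [B.C'.pal, Set.ncard_insert_of_notMem (by simp [ac, ab, ae]) (Set.toFinite _),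
    Set.ncard_insert_of_notMem (by simp [bc.symm, ce]) (Set.toFinite _), Set.ncard_pair be]

end BetaC

end Vale.Agent.P032.S5.H378
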