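import Vale.Agent.P032.S5.H448.TabU
import Vale.Agent.P032.S5.H496.Start
import Vale.Agent.P032.Words.H984.OneW

/-!
# P032: the facts `Tab` and `Has22` at a centre with one special end

Literal statements: `BetaZ.tab`, `has22_of`.  Input from the tables:
* `L2W`, `L3W`, `Sep22` (one circle, `Wrd`): if there are exactly two common points of each
  of the letter pairs 0|2, 1|3, 1|2, 0|3, and they are ends, then an end 0|2 separates the ends 1|3;
* `T0` (two circles, palette level): if the palettes `{a, b, e}`, `{c, d, f}` both occur on `S(z)`, then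
  `{c, d, f}` occurs twice, and `{a, b, e}` occurs twice or both `{a, b, f}`, `{c, d, e}` occur twice;
* `HasP` (two circles, palette level): one of the two types occurs twice with both palettes.
Angles in units of 60 degrees.  The special point `V` is an end between `0` and `2` with `|T| ≠ 3`.
-/

open Set Filter Topology Metric

noncomputable section

namespace Vale.Agent.P032.S5.H378

open Vale.Agent.P032.Six Vale.Agent.P032.Words Vale.Agent.P032.S5.H767 Vale.Agent.P032.S5.H349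
open Vale.Agent.P032.S5.H448
open Vale.Agent.P032.Net (Opp Bad22 det)

/-- the same angle -/
def E6 (u v : ℝ) : Prop := ∃ n : ℤ, u = v + 6 * n

/-- `m` is strictly between `k` and `l` on the circle (on an arc of less than 180 degrees) -/
def Bt (m k l : ℝ) : Prop := ∃ i j : ℤ,
  (k < m + 6 * i ∧ m + 6 * i < l + 6 * j ∧ l + 6 * j < k + 3) ∨
    (l < m + 6 * i ∧ m + 6 * i < k + 6 * j ∧ k + 6 * j < l + 3)

/-- exactly two common points of the letters `l`, `m`, and they are ends -/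
def Two2 (X : Fin 4 → Set ℝ) (l m : Fin 4) (s t : ℝ) : Prop :=
  End X l m s ∧ End X l m t ∧ ¬ E6 s t ∧ ∀ u, u ∈ X l → u ∈ X m → E6 u s ∨ E6 u t

/-- one circle with counts (2,2,2,2): an end 0|2 separates the two ends 1|3 -/
def Sep22 : Prop := ∀ (X : Fin 4 → Set ℝ) (V V' Q Q' W W' S S' : ℝ), Wrd X →
  Two2 X 0 2 V V' → Two2 X 1 3 Q Q' → Two2 X 1 2 W W' → Two2 X 0 3 S S' →
  V < Q → Q < Q' → Q' < V + 6 → Q < V + 3 ∧ V + 3 < Q'

/-- one circle: not exactly one end 0|2 and exactly one end 1|3 -/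
def L2W : Prop := ∀ (X : Fin 4 → Set ℝ) (V Q : ℝ), Wrd X → End X 0 2 V → End X 1 3 Q →
  (∀ u, u ∈ X 0 → u ∈ X 2 → ∃ n : ℤ, u = V + 6 * n) →
  (∀ u, u ∈ X 1 → u ∈ X 3 → ∃ n : ℤ, u = Q + 6 * n) → False

/-- one circle: exactly one end 0|2, exactly two ends 1|3 -/
def L3W : Prop := ∀ (X : Fin 4 → Set ℝ) (V Q Q' : ℝ), Wrd X → End X 0 2 V →
  (∀ u, u ∈ X 0 → u ∈ X 2 → ∃ n : ℤ, u = V + 6 * n) → End X 1 3 Q → End X 1 3 Q' →
  V < Q → Q < Q' → Q' < V + 6 →
  (∀ u, u ∈ X 1 → u ∈ X 3 → ∃ n : ℤ, u = Q + 6 * n ∨ u = Q' + 6 * n) →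
  Q < V + 3 ∧ V + 3 < Q' ∧ Q' ≤ Q + 3

variable {U : Fin 6 → Set ℂ} {T : ℂ → Set (Fin 6)} {X : Set (Fin 6)} {z v q q' : ℂ}
  {a b c d e f : Fin 6}

/-- the palette `X` occurs at least twice on the circle -/
def TwoP (T : ℂ → Set (Fin 6)) (z : ℂ) (X : Set (Fin 6)) : Prop :=
  ∃ y y', y ≠ y' ∧ dist y z = 1 ∧ dist y' z = 1 ∧ T y = X ∧ T y' = X

/-- output of the two-circle table: counts of the type of the special end -/
def T0 (T : ℂ → Set (Fin 6)) (z : ℂ) (a b c d e f : Fin 6) : Prop :=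
  ∀ y q, dist y z = 1 → T y = {a, b, e} → dist q z = 1 → T q = {c, d, f} →
    TwoP T z {c, d, f} ∧ (TwoP T z {a, b, e} ∨ (TwoP T z {a, b, f} ∧ TwoP T z {c, d, e}))

/-- output of the two-circle table: some type has counts (2,2) -/
def HasP (T : ℂ → Set (Fin 6)) (z : ℂ) (a b c d e f : Fin 6) : Prop :=
  (TwoP T z {a, b, e} ∧ TwoP T z {c, d, f}) ∨ (TwoP T z {a, b, f} ∧ TwoP T z {c, d, e})

/-- a centre with one special end at the angle `V` -/
structure BetaZ (U : Fin 6 → Set ℂ) (T : ℂ → Set (Fin 6)) (z : ℂ) (a b c d e f : Fin 6) (V : ℝ) :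
    Prop where
  C : Ctr U T z a b c d e f
  dp : DPt T z a b c d
  wrd : Wrd (Xs T z a b c d e f)
  sp : End (Xs T z a b c d e f) 0 2 V
  hV : (T (pt z V)).ncard ≠ 3
  h3 : ∀ u, u ∈ Xs T z a b c d e f 2 ∨ u ∈ Xs T z a b c d e f 3 →
    (T (pt z u)).ncard ≤ 3 ∨ E6 u V

/-! ### angles -/

theorem E6.refl (u : ℝ) : E6 u u := ⟨0, by simp⟩

theorem E6.symm {u v : ℝ} (h : E6 u v) : E6 v u := by
  obtain ⟨n, hn⟩ := h
  exact ⟨-n, by rw [hn]; push_cast; ring⟩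

theorem pt_int (z : ℂ) (u : ℝ) (n : ℤ) : pt z (u + 6 * n) = pt z u := by
  induction n generalizing u with
  | zero => simp
  | succ i ih =>
    have e1 : u + 6 * (((i : ℤ) + 1 : ℤ) : ℝ) = (u + 6 * ((i : ℤ) : ℝ)) + 6 := by
      push_cast; ring
    rw [e1, pt_six, ih]
  | pred i ih =>
    have e1 : u + 6 * ((-(i : ℤ) - 1 : ℤ) : ℝ) + 6 = u + 6 * ((-(i : ℤ) : ℤ) : ℝ) := by
      push_cast; ring
    rw [← pt_six, e1, ih]

theorem E6.pt (z : ℂ) {u v : ℝ} (h : E6 u v) : pt z u = pt z v := by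
  obtain ⟨n, rfl⟩ := h; exact pt_int z v n

theorem pt_iff {z : ℂ} {u v : ℝ} : pt z u = pt z v ↔ E6 u v := ⟨fun h => pt_eq h, fun h => h.pt z⟩

/-- a representative in the window after `V` -/
theorem exists_rep {p : ℂ} (hp : dist p z = 1) {V : ℝ} (hV : pt z V ≠ p) :
    ∃ Q, p = pt z Q ∧ V < Q ∧ Q < V + 6 := by
  obtain ⟨Q, hQ⟩ := exists_pt hp
  have h1 := Int.floor_le ((Q - V) / 6)
  have h2 := Int.lt_floor_add_one ((Q - V) / 6)
  have h4 : p = pt z (Q + 6 * ((-⌊(Q - V) / 6⌋ : ℤ) : ℝ)) := by rw [pt_int, hQ]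
  refine ⟨Q + 6 * ((-⌊(Q - V) / 6⌋ : ℤ) : ℝ), h4, ?_, ?_⟩
  · refine lt_of_le_of_ne ?_ ?_
    · push_cast; linarith
    · intro h5
      exact hV (by rw [h4, ← h5])
  · push_cast; linarith

theorem det_pt (z : ℂ) (u v : ℝ) : det (pt z u - z) (pt z v - z) = Real.sin ((v - u) * (Real.pi / 3)) := by
  unfold pt det
  rw [add_sub_cancel_left, add_sub_cancel_left]
  unfold cis
  rw [Complex.exp_ofReal_mul_I_re, Complex.exp_ofReal_mul_I_im, Complex.exp_ofReal_mul_I_re,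
    Complex.exp_ofReal_mul_I_im, sub_mul, Real.sin_sub]
  ring

theorem sin_pos_of {x : ℝ} (h0 : 0 < x) (h3 : x < 3) : 0 < Real.sin (x * (Real.pi / 3)) := by
  have := Real.pi_pos
  apply Real.sin_pos_of_pos_of_lt_pi
  · positivity
  · nlinarith

theorem sin_neg_of {x : ℝ} (h0 : 3 < x) (h3 : x < 6) : Real.sin (x * (Real.pi / 3)) < 0 := by
  have h1 : x * (Real.pi / 3) = (x - 3) * (Real.pi / 3) + Real.pi := by ring
  rw [h1, Real.sin_add_pi, neg_lt_zero]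
  exact sin_pos_of (by linarith) (by linarith)

/-- from the sign of the sine to a representative -/
theorem rep_of_sin_pos {x : ℝ} (h : 0 < Real.sin (x * (Real.pi / 3))) :
    ∃ n : ℤ, 0 < x + 6 * n ∧ x + 6 * n < 3 := by
  have h1 := Int.floor_le (x / 6)
  have h2 := Int.lt_floor_add_one (x / 6)
  have hpi := Real.pi_pos
  refine ⟨-⌊x / 6⌋, ?_, ?_⟩
  · push_cast
    by_contra hc
    have h5 : x = 6 * (⌊x / 6⌋ : ℝ) := by linarith
    have h6 : x * (Real.pi / 3) = ((2 * ⌊x / 6⌋ : ℤ) : ℝ) * Real.pi := by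
      conv_lhs => rw [h5]
      push_cast; ring
    rw [h6, Real.sin_int_mul_pi] at h
    exact lt_irrefl _ h
  · push_cast
    by_contra hc
    push Not at hc
    have h6 : Real.sin (x * (Real.pi / 3)) = -Real.sin ((x + 6 * -(⌊x / 6⌋ : ℝ) - 3) * (Real.pi / 3)) := by
      have e : (x + 6 * -(⌊x / 6⌋ : ℝ) - 3) * (Real.pi / 3) =
          x * (Real.pi / 3) - Real.pi - (⌊x / 6⌋ : ℝ) * (2 * Real.pi) := by ring
      rw [e, Real.sin_sub_int_mul_two_pi, Real.sin_sub_pi, neg_neg]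
    have h7 : 0 ≤ Real.sin ((x + 6 * -(⌊x / 6⌋ : ℝ) - 3) * (Real.pi / 3)) := by
      apply Real.sin_nonneg_of_nonneg_of_le_pi
      · apply mul_nonneg _ (by positivity)
        linarith
      · nlinarith
    linarith

theorem bt_of_opp {z : ℂ} {m k l : ℝ} (h : Opp (pt z m - z) (pt z k - z) (pt z l - z)) :
    Bt m k l := by
  obtain ⟨h1, h2⟩ := h
  rw [det_pt, det_pt] at h1
  rw [det_pt, det_pt] at h2
  rcases lt_trichotomy (Real.sin ((m - k) * (Real.pi / 3))) 0 with h3 | h3 | h3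
  · -- all three are negative
    have h4 : Real.sin ((l - m) * (Real.pi / 3)) < 0 := by nlinarith
    have h5 : Real.sin ((l - k) * (Real.pi / 3)) < 0 := by nlinarith
    have k3 : 0 < Real.sin ((k - m) * (Real.pi / 3)) := by
      have e : (k - m) * (Real.pi / 3) = -((m - k) * (Real.pi / 3)) := by ring
      rw [e, Real.sin_neg]; linarith
    have k4 : 0 < Real.sin ((m - l) * (Real.pi / 3)) := by
      have e : (m - l) * (Real.pi / 3) = -((l - m) * (Real.pi / 3)) := by ring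
      rw [e, Real.sin_neg]; linarith
    have k5 : 0 < Real.sin ((k - l) * (Real.pi / 3)) := by
      have e : (k - l) * (Real.pi / 3) = -((l - k) * (Real.pi / 3)) := by ring
      rw [e, Real.sin_neg]; linarith
    obtain ⟨i, hi1, hi2⟩ := rep_of_sin_pos k4
    obtain ⟨j, hj1, hj2⟩ := rep_of_sin_pos k5
    obtain ⟨n, hn1, hn2⟩ := rep_of_sin_pos k3
    have key : j = i + n := by
      have h6 : (-1 : ℝ) < (j : ℝ) - i - n := by linarith
      have h7 : ((j : ℝ) - i - n) < 1 := by linarith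
      have h8 : (-1 : ℤ) < j - i - n := by exact_mod_cast h6
      have h9 : j - i - n < 1 := by exact_mod_cast h7
      omega
    refine ⟨i, j, Or.inr ⟨by linarith, ?_, by linarith⟩⟩
    rw [key]; push_cast; linarith
  · rw [h3] at h1; simp at h1
  · have h4 : 0 < Real.sin ((l - m) * (Real.pi / 3)) := by
      by_contra hc; push Not at hc; nlinarith
    have h5 : 0 < Real.sin ((l - k) * (Real.pi / 3)) := by
      by_contra hc; push Not at hc; nlinarith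
    obtain ⟨i, hi1, hi2⟩ := rep_of_sin_pos h3
    obtain ⟨j, hj1, hj2⟩ := rep_of_sin_pos h5
    obtain ⟨n, hn1, hn2⟩ := rep_of_sin_pos h4
    have key : j = i + n := by
      have h6 : (-1 : ℝ) < (j : ℝ) - i - n := by linarith
      have h7 : ((j : ℝ) - i - n) < 1 := by linarith
      have h8 : (-1 : ℤ) < j - i - n := by exact_mod_cast h6
      have h9 : j - i - n < 1 := by exact_mod_cast h7
      omega
    refine ⟨i, j, Or.inl ⟨by linarith, ?_, by linarith⟩⟩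
    rw [key]; push_cast; linarith

/-! ### palettes and letters -/

theorem compl_abe (C : Ctr U T z a b c d e f) : ({a, b, e} : Set (Fin 6))ᶜ = {c, d, f} := by
  obtain ⟨⟨ab, ac, ad, ae, af⟩, ⟨bc, bd, be, bf⟩, ⟨cd, ce, cf⟩, ⟨de, df⟩, ef⟩ := nd_ne C.nd
  ext i
  simp only [mem_compl_iff, mem_insert_iff, mem_singleton_iff, not_or]
  constructor
  · rintro ⟨h1, h2, h3⟩
    rcases C.all i with h | h | h | h | h | h
    exacts [absurd h h1, absurd h h2, Or.inl h, Or.inr (Or.inl h), absurd h h3, Or.inr (Or.inr h)]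
  · rintro (rfl | rfl | rfl)
    · exact ⟨ac.symm, bc.symm, ce⟩
    · exact ⟨ad.symm, bd.symm, de⟩
    · exact ⟨af.symm, bf.symm, ef.symm⟩

/-- a point with the letters `e`, `ab` and three colours -/
theorem mem02 (C : Ctr U T z a b c d e f) {u : ℝ} (h0 : u ∈ Xs T z a b c d e f 0)
    (h2 : u ∈ Xs T z a b c d e f 2) (h3 : (T (pt z u)).ncard ≤ 3) : T (pt z u) = {a, b, e} := by
  obtain ⟨⟨ab, ac, ad, ae, af⟩, ⟨bc, bd, be, bf⟩, ⟨cd, ce, cf⟩, ⟨de, df⟩, ef⟩ := nd_ne C.nd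
  have k2 := sub_of_closure C.irr (P := {a, b}) h2
  symm
  refine Set.eq_of_subset_of_ncard_le ?_ ?_ (Set.toFinite _)
  · rintro i (rfl | rfl | rfl)
    · exact k2 (Or.inl rfl)
    · exact k2 (Or.inr rfl)
    · exact h0.2
  · have : ({a, b, e} : Set (Fin 6)).ncard = 3 := Set.ncard_eq_three.2 ⟨a, b, e, ab, ae, be, rfl⟩
    rw [this]; exact h3

theorem nodup_cases (C : Ctr U T z a b c d e f) :
    e ∉ T z ∧ f ∉ T z ∧ e ≠ f := by
  obtain ⟨⟨ab, ac, ad, ae, af⟩, ⟨bc, bd, be, bf⟩, ⟨cd, ce, cf⟩, ⟨de, df⟩, ef⟩ := nd_ne C.nd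
  rw [C.pal]
  simp only [mem_insert_iff, mem_singleton_iff, not_or]
  exact ⟨⟨ae.symm, be.symm, ce.symm, de.symm⟩, ⟨af.symm, bf.symm, cf.symm, df.symm⟩, ef⟩

/-- points with complementary palettes are ends -/
theorem ee_pal (h : Irr U T) (h4 : ∀ z, (T z).ncard ≤ 4) (C : Ctr U T z a b c d e f)
    (dp : DPt T z a b c d) {y q : ℂ} (hy : dist y z = 1) (Ty : T y = {a, b, e})
    (hq : dist q z = 1) (Tq : T q = {c, d, f}) : EE T z y := by
  obtain ⟨he, hf, ef⟩ := nodup_cases C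
  have N : Cfg T z y q a b c d e f := ⟨dp, hy, hq, Ty, Tq, he, hf, ef⟩
  rcases N.normal h (h4 _) with N | N | N | N <;> exact N.ee h

/-- the four labelled forms of the letter sets -/
theorem xs_swapEF (T : ℂ → Set (Fin 6)) (z : ℂ) (a b c d e f : Fin 6) :
    Xs T z a b c d f e = fun l => Xs T z a b c d e f (Equiv.swap 0 1 l) := by
  funext l; fin_cases l <;> rfl

theorem xs_swapAC (T : ℂ → Set (Fin 6)) (z : ℂ) (a b c d e f : Fin 6) :
    Xs T z c d a b e f = fun l => Xs T z a b c d e f (Equiv.swap 2 3 l) := by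
  funext l; fin_cases l <;> rfl

theorem end_perm {X : Fin 4 → Set ℝ} {σ : Equiv.Perm (Fin 4)} {l m : Fin 4} {V : ℝ}
    (h : End (fun l => X (σ l)) l m V) : End X (σ l) (σ m) V := by
  have key : ∀ {l m : Fin 4}, Mark (fun l => X (σ l)) l m V → Mark X (σ l) (σ m) V := by
    intro l m h
    refine ⟨h.mem_a, h.mem_b, fun k hk => ?_, h.left, h.right⟩
    have h1 := h.only (σ.symm k) (by rw [Equiv.apply_symm_apply]; exact hk)
    rcases h1 with h1 | h1
    · left; rw [← h1, Equiv.apply_symm_apply]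
    · right; rw [← h1, Equiv.apply_symm_apply]
  exact h.imp key key

theorem wrd_perm {X : Fin 4 → Set ℝ} (R : Wrd X) :
    Wrd (fun l => X (Equiv.swap 0 1 l)) ∧ Wrd (fun l => X (Equiv.swap 2 3 l)) :=
  ⟨R.perm _ (Or.inl ⟨by decide, by decide⟩), R.perm _ (Or.inr ⟨by decide, by decide⟩)⟩

theorem two2_perm {X : Fin 4 → Set ℝ} (σ : Equiv.Perm (Fin 4)) {l m : Fin 4} {s t : ℝ}
    (h : Two2 X (σ l) (σ m) s t) : Two2 (fun l => X (σ l)) l m s t := by
  have key : ∀ {V : ℝ}, End X (σ l) (σ m) V → End (fun l => X (σ l)) l m V := by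
    intro V h
    have k : ∀ {l m : Fin 4}, Mark X (σ l) (σ m) V → Mark (fun l => X (σ l)) l m V := by
      intro l m h
      refine ⟨h.mem_a, h.mem_b, fun k hk => ?_, h.left, h.right⟩
      exact (h.only (σ k) hk).imp (fun h => σ.injective h) fun h => σ.injective h
    exact h.imp k k
  exact ⟨key h.1, key h.2.1, h.2.2.1, h.2.2.2⟩

/-- the separation without the order of the angles -/
theorem sep_det (S : Sep22) {X : Fin 4 → Set ℝ} (R : Wrd X) {V V' Q Q' W W' P P' : ℝ}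
    (h02 : Two2 X 0 2 V V') (h13 : Two2 X 1 3 Q Q') (h12 : Two2 X 1 2 W W')
    (h03 : Two2 X 0 3 P P') (z : ℂ) :
    det (pt z V - z) (pt z Q - z) * det (pt z V - z) (pt z Q' - z) < 0 := by
  have memE : ∀ {l m : Fin 4} {u : ℝ}, End X l m u → u ∈ X l ∧ u ∈ X m := by
    rintro l m u (h | h)
    exacts [⟨h.mem_a, h.mem_b⟩, ⟨h.mem_b, h.mem_a⟩]
  have per : ∀ {u v : ℝ} {l : Fin 4}, E6 u v → v ∈ X l → u ∈ X l := by
    rintro u v l ⟨n, rfl⟩ hv
    induction n with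
    | zero => simpa using hv
    | succ i ih =>
      have e1 : v + 6 * (((i : ℤ) + 1 : ℤ) : ℝ) = (v + 6 * ((i : ℤ) : ℝ)) + 6 := by push_cast; ring
      rw [e1, R.per]; exact ih
    | pred i ih =>
      have e1 : v + 6 * ((-(i : ℤ) - 1 : ℤ) : ℝ) + 6 = v + 6 * ((-(i : ℤ) : ℤ) : ℝ) := by
        push_cast; ring
      rw [← R.per, e1]; exact ih
  have perE : ∀ {l m : Fin 4} {u v : ℝ}, E6 u v → End X l m v → End X l m u := by
    rintro l m u v ⟨n, rfl⟩ hv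
    have key : ∀ {l m : Fin 4}, Mark X l m v → Mark X l m (v + 6 * n) := by
      intro l m h
      have hsh : ∀ (w : ℝ) (k : Fin 4), w ∈ X k → w - 6 * n ∈ X k := fun w k hw =>
        per (u := w - 6 * n) (v := w) ⟨-n, by push_cast; ring⟩ hw
      have t1 : Tendsto (fun w : ℝ => w - 6 * n) (𝓝[<] (v + 6 * n)) (𝓝[<] v) := by
        have := tendsto_add_left (v + 6 * n) (-(6 * n))
        simpa [sub_eq_add_neg] using this
      have t2 : Tendsto (fun w : ℝ => w - 6 * n) (𝓝[>] (v + 6 * n)) (𝓝[>] v) := by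
        have := tendsto_add_right (v + 6 * n) (-(6 * n))
        simpa [sub_eq_add_neg] using this
      refine ⟨per ⟨n, rfl⟩ h.mem_a, per ⟨n, rfl⟩ h.mem_b, fun k hk => h.only k ?_, ?_, ?_⟩
      · have := hsh _ _ hk
        simpa using this
      · filter_upwards [t1.eventually h.left] with w hw hw'
        exact hw (hsh _ _ hw')
      · filter_upwards [t2.eventually h.right] with w hw hw'
        exact hw (hsh _ _ hw')
    exact hv.imp key key
  have hnVQ : ∀ {Q : ℝ}, End X 1 3 Q → pt z V ≠ pt z Q := by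
    intro Q hQ h5
    exact R.ac V (memE h02.1).2 (per ((pt_iff (z := z)).1 h5) (memE hQ).2)
  have main : ∀ {Q Q' : ℝ}, Two2 X 1 3 Q Q' → V < Q → Q < Q' → Q' < V + 6 →
      det (pt z V - z) (pt z Q - z) * det (pt z V - z) (pt z Q' - z) < 0 := by
    intro Q Q' h13 k1 k2 k3
    obtain ⟨m1, m2⟩ := S X V V' Q Q' W W' P P' R h02 h13 h12 h03 k1 k2 k3
    rw [det_pt, det_pt]
    exact mul_neg_of_pos_of_neg (sin_pos_of (by linarith) (by linarith))
      (sin_neg_of (by linarith) (by linarith))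
  obtain ⟨Q₁, hQ₁, hQ1, hQ2⟩ := exists_rep (dist_pt z Q) (hnVQ h13.1)
  obtain ⟨Q₂, hQ₂, hQ1', hQ2'⟩ := exists_rep (dist_pt z Q') (hnVQ h13.2.1)
  have e1 : E6 Q Q₁ := (pt_iff (z := z)).1 hQ₁
  have e2 : E6 Q' Q₂ := (pt_iff (z := z)).1 hQ₂
  have hne : ¬ E6 Q₁ Q₂ := by
    intro h5
    exact h13.2.2.1 ((pt_iff (z := z)).1 (by rw [hQ₁, hQ₂]; exact h5.pt z))
  have hall : ∀ u, u ∈ X 1 → u ∈ X 3 → E6 u Q₁ ∨ E6 u Q₂ := by
    intro u h1 h3
    rcases h13.2.2.2 u h1 h3 with h5 | h5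
    · left; exact (pt_iff (z := z)).1 ((h5.pt z).trans hQ₁)
    · right; exact (pt_iff (z := z)).1 ((h5.pt z).trans hQ₂)
  have k1 := perE e1.symm h13.1
  have k2 := perE e2.symm h13.2.1
  rw [hQ₁, hQ₂]
  rcases lt_trichotomy Q₁ Q₂ with hlt | heq | hlt
  · exact main ⟨k1, k2, hne, hall⟩ hQ1 hlt hQ2'
  · exact absurd (by rw [heq]; exact E6.refl _) hne
  · have := main ⟨k2, k1, fun h5 => hne h5.symm, fun u h1 h3 => (hall u h1 h3).symm⟩ hQ1' hlt hQ2
    linarith [mul_comm (det (pt z V - z) (pt z Q₁ - z)) (det (pt z V - z) (pt z Q₂ - z))]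

/-- the data of one type at a centre: both palettes occur -/
structure Ty (U : Fin 6 → Set ℂ) (T : ℂ → Set (Fin 6)) (z : ℂ) (a b c d e f : Fin 6) : Prop where
  h4 : ∀ z, (T z).ncard ≤ 4
  C : Ctr U T z a b c d e f
  dp : DPt T z a b c d
  wrd : Wrd (Xs T z a b c d e f)
  y : ∃ y, dist y z = 1 ∧ T y = {a, b, e}
  q : ∃ q, dist q z = 1 ∧ T q = {c, d, f}

namespace Ty

theorem swap (t : Ty U T z a b c d e f) : Ty U T z c d a b f e where
  h4 := t.h4
  C := t.C.swapAC.swapEF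
  dp := t.dp.swap
  wrd := by
    rw [xs_swapEF T z c d a b e f, xs_swapAC T z a b c d e f]
    exact (wrd_perm (wrd_perm t.wrd).2).1
  y := t.q
  q := t.y

theorem ee (t : Ty U T z a b c d e f) {y : ℂ} (hy : dist y z = 1) (h : T y = {a, b, e}) :
    EE T z y := by
  obtain ⟨q, hq, Tq⟩ := t.q
  exact ee_pal t.C.irr t.h4 t.C t.dp hy h hq Tq

theorem cln (t : Ty U T z a b c d e f) {y : ℂ} (hy : dist y z = 1) (h : T y = {a, b, e}) :
    Cln T z y := by
  obtain ⟨q, hq, Tq⟩ := t.q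
  have h1 := t.ee hy h
  have h2 := t.swap.ee hq Tq
  exact h1.cln t.C.irr t.h4 h2 (by rw [h, Tq, compl_abe t.C]) hy rfl

theorem end02 (t : Ty U T z a b c d e f) {u : ℝ} (h : T (pt z u) = {a, b, e}) :
    End (Xs T z a b c d e f) 0 2 u :=
  H349.end02 t.C h (t.cln (dist_pt z u) h)

theorem pe (t : Ty U T z a b c d e f) {y : ℂ} (hy : dist y z = 1) (h : T y = {a, b, e}) :
    PE T {a, b, e} z y := ⟨t.ee hy h, h⟩

theorem pe' (t : Ty U T z a b c d e f) {y : ℂ} (hy : dist y z = 1) (h : T y = {c, d, f}) :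
    PE T {a, b, e}ᶜ z y := ⟨t.swap.ee hy h, by rw [compl_abe t.C]; exact h⟩

/-- at most two points of a palette -/
theorem le_two (t : Ty U T z a b c d e f) {y y' s : ℂ} (hy : dist y z = 1) (h : T y = {a, b, e})
    (hy' : dist y' z = 1) (h' : T y' = {a, b, e}) (hne : y ≠ y') (hs : dist s z = 1)
    (hs' : T s = {a, b, e}) : s = y ∨ s = y' := by
  obtain ⟨q, hq, Tq⟩ := t.q
  have ts := t.swap
  have e1 : ({c, d, f} : Set (Fin 6))ᶜ = {a, b, e} := by
    rw [← compl_abe t.C, compl_compl]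
  refine H448.le_two t.C.irr t.h4 (X := {c, d, f}) (v := q) ⟨ts.ee hq Tq, Tq⟩
    ⟨t.ee hy h, h.trans e1.symm⟩ ⟨t.ee hy' h', h'.trans e1.symm⟩ hne ⟨t.ee hs hs', hs'.trans e1.symm⟩

/-- the angles of the points of the first palette -/
theorem angles (t : Ty U T z a b c d e f) : ∃ s s' : ℝ, T (pt z s) = {a, b, e} ∧
    T (pt z s') = {a, b, e} ∧ ∀ u, T (pt z u) = {a, b, e} → E6 u s ∨ E6 u s' := by
  obtain ⟨y, hy, Ty⟩ := t.y
  obtain ⟨s, rfl⟩ := exists_pt hy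
  by_cases hx : ∃ y', y' ≠ pt z s ∧ dist y' z = 1 ∧ T y' = {a, b, e}
  · obtain ⟨y', hne, hy', Ty'⟩ := hx
    obtain ⟨s', rfl⟩ := exists_pt hy'
    refine ⟨s, s', Ty, Ty', fun u hu => ?_⟩
    rcases t.le_two hy Ty hy' Ty' (Ne.symm hne) (dist_pt z u) hu with h1 | h1
    · exact Or.inl (pt_iff.1 h1)
    · exact Or.inr (pt_iff.1 h1)
  · push Not at hx
    refine ⟨s, s, Ty, Ty, fun u hu => Or.inl ((pt_iff (z := z)).1 ?_)⟩
    by_contra hne
    exact hx _ hne (dist_pt z u) hu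

theorem end13 (t : Ty U T z a b c d e f) {u : ℝ} (h : T (pt z u) = {c, d, f}) :
    End (Xs T z a b c d e f) 1 3 u :=
  H349.end13 t.C h (t.swap.cln (dist_pt z u) h)

/-- not exactly one point of each palette (no special end in this type) -/
theorem no11 (t : Ty U T z a b c d e f) (L2 : L2W)
    (g2 : ∀ u, u ∈ Xs T z a b c d e f 0 → u ∈ Xs T z a b c d e f 2 → (T (pt z u)).ncard ≤ 3)
    (g3 : ∀ u, u ∈ Xs T z a b c d e f 1 → u ∈ Xs T z a b c d e f 3 → (T (pt z u)).ncard ≤ 3)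
    (hv : dist v z = 1) (Tv : T v = {a, b, e}) (hq : dist q z = 1) (Tq : T q = {c, d, f})
    (h1 : ∀ y, dist y z = 1 → T y = {a, b, e} → y = v)
    (h2 : ∀ y, dist y z = 1 → T y = {c, d, f} → y = q) : False := by
  obtain ⟨V, rfl⟩ := exists_pt hv
  obtain ⟨Q, rfl⟩ := exists_pt hq
  refine L2 _ V Q t.wrd (t.end02 Tv) (t.end13 Tq) (fun u k0 k2 => ?_) (fun u k0 k2 => ?_)
  · exact (pt_iff (z := z)).1 (h1 _ (dist_pt z u) (mem02 t.C k0 k2 (g2 u k0 k2)))
  · exact (pt_iff (z := z)).1 (h2 _ (dist_pt z u) (mem02 t.C.swapAC.swapEF k0 k2 (g3 u k0 k2)))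

theorem opp_symm {t k l : ℂ} (h : Opp t k l) : Opp t l k := by
  obtain ⟨h1, h2⟩ := h
  have e1 : det l t = -det t l := by unfold det; ring
  have e2 : det t k = -det k t := by unfold det; ring
  have e3 : det l k = -det k l := by unfold det; ring
  refine ⟨by rw [e1, e2]; linarith [mul_comm (det t l) (det k t)], ?_⟩
  rw [e1, e3, neg_mul_neg]
  rcases lt_trichotomy (det k t) 0 with h3 | h3 | h3
  · have h4 : det t l < 0 := by by_contra hc; push Not at hc; nlinarith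
    have h5 : det k l < 0 := by by_contra hc; push Not at hc; nlinarith
    exact mul_pos_of_neg_of_neg h4 h5
  · rw [h3] at h1; simp at h1
  · have h4 : 0 < det t l := by by_contra hc; push Not at hc; nlinarith
    have h5 : 0 < det k l := by by_contra hc; push Not at hc; nlinarith
    exact mul_pos h4 h5

/-- one point of the first palette and two of the second: a triangle (no special end in this type) -/
theorem tri (t : Ty U T z a b c d e f) (L3 : L3W)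
    (g2 : ∀ u, u ∈ Xs T z a b c d e f 0 → u ∈ Xs T z a b c d e f 2 → (T (pt z u)).ncard ≤ 3)
    (g3 : ∀ u, u ∈ Xs T z a b c d e f 1 → u ∈ Xs T z a b c d e f 3 → (T (pt z u)).ncard ≤ 3)
    (hv : dist v z = 1) (Tv : T v = {a, b, e}) (hq : dist q z = 1) (Tq : T q = {c, d, f})
    (hq' : dist q' z = 1) (Tq' : T q' = {c, d, f}) (hne : q ≠ q')
    (h1 : ∀ y, dist y z = 1 → T y = {a, b, e} → y = v) :
    det (v - z) (q - z) * det (v - z) (q' - z) < 0 ∧ ¬ Opp (v - z) (q - z) (q' - z) := by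
  obtain ⟨⟨ab, ac, ad, ae, af⟩, ⟨bc, bd, be, bf⟩, ⟨cd, ce, cf⟩, ⟨de, df⟩, ef⟩ := nd_ne t.C.nd
  have hvq : ∀ {p : ℂ}, T p = {c, d, f} → v ≠ p := by
    rintro p Tp rfl
    have : a ∈ T v := by rw [Tv]; simp
    rw [Tp] at this
    rcases this with h | h | h
    exacts [ac h, ad h, af h]
  obtain ⟨V, rfl⟩ := exists_pt hv
  have main : ∀ {Q Q' : ℝ}, V < Q → Q < Q' → Q' < V + 6 → T (pt z Q) = {c, d, f} →
      T (pt z Q') = {c, d, f} → pt z Q ≠ pt z Q' →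
      det (pt z V - z) (pt z Q - z) * det (pt z V - z) (pt z Q' - z) < 0 ∧
        ¬ Opp (pt z V - z) (pt z Q - z) (pt z Q' - z) := by
    intro Q Q' k1 k2 k3 TQ TQ' hn
    obtain ⟨m1, m2, m3⟩ := L3 _ V Q Q' t.wrd (t.end02 Tv)
      (fun u n0 n2 => (pt_iff (z := z)).1 (h1 _ (dist_pt z u) (mem02 t.C n0 n2 (g2 u n0 n2))))
      (t.end13 TQ) (t.end13 TQ') k1 k2 k3 (fun u n0 n2 => by
        have Tu := mem02 t.C.swapAC.swapEF n0 n2 (g3 u n0 n2)
        rcases t.swap.le_two (dist_pt z Q) TQ (dist_pt z Q') TQ' hn (dist_pt z u) Tu with h5 | h5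
        · obtain ⟨n, hn⟩ := (pt_iff (z := z)).1 h5
          exact ⟨n, Or.inl hn⟩
        · obtain ⟨n, hn⟩ := (pt_iff (z := z)).1 h5
          exact ⟨n, Or.inr hn⟩)
    constructor
    · rw [det_pt, det_pt]
      exact mul_neg_of_pos_of_neg (sin_pos_of (by linarith) (by linarith))
        (sin_neg_of (by linarith) (by linarith))
    · intro ho
      obtain ⟨i, j, ⟨n1, n2, n3⟩ | ⟨n1, n2, n3⟩⟩ := bt_of_opp ho
      · have h5 : (0 : ℝ) < i := by linarith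
        have h6 : (i : ℝ) < 1 := by linarith
        have h5' : (0 : ℤ) < i := by exact_mod_cast h5
        have h6' : i < (1 : ℤ) := by exact_mod_cast h6
        omega
      · have h5 : (0 : ℝ) < i := by linarith
        have h6 : (j : ℝ) < 1 := by linarith
        have h5' : (0 : ℤ) < i := by exact_mod_cast h5
        have h6' : j < (1 : ℤ) := by exact_mod_cast h6
        have h7 : (j : ℝ) ≤ 0 := by exact_mod_cast (by omega : j ≤ 0)
        have h8 : (1 : ℝ) ≤ i := by exact_mod_cast (by omega : 1 ≤ i)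
        linarith
  obtain ⟨Q, rfl, hQ1, hQ2⟩ := exists_rep hq (hvq Tq)
  obtain ⟨Q', rfl, hQ1', hQ2'⟩ := exists_rep hq' (hvq Tq')
  rcases lt_trichotomy Q Q' with hlt | heq | hlt
  · exact main hQ1 hlt hQ2' Tq Tq' hne
  · exact absurd (by rw [heq]) hne
  · obtain ⟨m1, m2⟩ := main hQ1' hlt hQ2 Tq' Tq hne.symm
    exact ⟨by linarith [mul_comm (det (pt z V - z) (pt z Q - z)) (det (pt z V - z) (pt z Q' - z))],
      fun ho => m2 (opp_symm ho)⟩

end Ty

namespace BetaZ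

variable {V : ℝ}

/-- the special point carries only the letters `0`, `2` -/
theorem sp_only (B : BetaZ U T z a b c d e f V) {u : ℝ} (hu : E6 u V) {l : Fin 4}
    (hl : u ∈ Xs T z a b c d e f l) : l = 0 ∨ l = 2 := by
  have h1 : V ∈ Xs T z a b c d e f l := by
    show pt z V ∈ Lt T z a b c d e f l
    rw [← hu.pt z]; exact hl
  rcases B.sp with h | h
  · exact h.only l h1
  · exact (h.only l h1).symm

theorem le3 (B : BetaZ U T z a b c d e f V) {u : ℝ} {l m : Fin 4} (hl : u ∈ Xs T z a b c d e f l)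
    (hm : u ∈ Xs T z a b c d e f m) (hl' : l = 1 ∨ l = 3 ∨ m = 3) (hm' : m = 2 ∨ m = 3) :
    (T (pt z u)).ncard ≤ 3 := by
  have h1 : (T (pt z u)).ncard ≤ 3 ∨ E6 u V := by
    apply B.h3
    rcases hm' with rfl | rfl
    · exact Or.inl hm
    · exact Or.inr hm
  rcases h1 with h1 | h1
  · exact h1
  · exfalso
    rcases hl' with rfl | rfl | rfl
    · rcases B.sp_only h1 hl with h | h <;> exact absurd h (by decide)
    · rcases B.sp_only h1 hl with h | h <;> exact absurd h (by decide)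
    · rcases B.sp_only h1 hm with h | h <;> exact absurd h (by decide)

/-- type 0, if both palettes occur -/
theorem ty0 (B : BetaZ U T z a b c d e f V) (h4 : ∀ z, (T z).ncard ≤ 4)
    (y : ∃ y, dist y z = 1 ∧ T y = {a, b, e}) (q : ∃ q, dist q z = 1 ∧ T q = {c, d, f}) :
    Ty U T z a b c d e f :=
  ⟨h4, B.C, B.dp, B.wrd, y, q⟩

/-- type 1, if both palettes occur -/
theorem ty1 (B : BetaZ U T z a b c d e f V) (h4 : ∀ z, (T z).ncard ≤ 4)
    (y : ∃ y, dist y z = 1 ∧ T y = {a, b, f}) (q : ∃ q, dist q z = 1 ∧ T q = {c, d, e}) :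
    Ty U T z a b c d f e :=
  ⟨h4, B.C.swapEF, B.dp, by rw [xs_swapEF T z a b c d e f]; exact (wrd_perm B.wrd).1, y, q⟩

/-- the ends of type 1, first palette -/
theorem two12 (B : BetaZ U T z a b c d e f V) (h4 : ∀ z, (T z).ncard ≤ 4) {w w' : ℝ}
    (h1 : T (pt z w) = {a, b, f}) (h2 : T (pt z w') = {a, b, f}) (hne : pt z w ≠ pt z w')
    (q : ∃ q, dist q z = 1 ∧ T q = {c, d, e}) : Two2 (Xs T z a b c d e f) 1 2 w w' := by
  have t := B.ty1 h4 ⟨_, dist_pt z w, h1⟩ q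
  have key : ∀ {u}, T (pt z u) = {a, b, f} → End (Xs T z a b c d e f) 1 2 u := by
    intro u hu
    have h5 := t.end02 hu
    rw [xs_swapEF T z a b c d e f] at h5
    exact end_perm h5
  refine ⟨key h1, key h2, fun h5 => hne (h5.pt z), fun u k0 k2 => ?_⟩
  have h5 := mem02 B.C.swapEF k0 k2 (B.le3 k0 k2 (Or.inl rfl) (Or.inl rfl))
  rcases t.le_two (dist_pt z w) h1 (dist_pt z w') h2 hne (dist_pt z u) h5 with h6 | h6
  · exact Or.inl ((pt_iff (z := z)).1 h6)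
  · exact Or.inr ((pt_iff (z := z)).1 h6)

/-- the ends of type 1, second palette -/
theorem two03 (B : BetaZ U T z a b c d e f V) (h4 : ∀ z, (T z).ncard ≤ 4) {w w' : ℝ}
    (h1 : T (pt z w) = {c, d, e}) (h2 : T (pt z w') = {c, d, e}) (hne : pt z w ≠ pt z w')
    (y : ∃ y, dist y z = 1 ∧ T y = {a, b, f}) : Two2 (Xs T z a b c d e f) 0 3 w w' := by
  have t := (B.ty1 h4 y ⟨_, dist_pt z w, h1⟩).swap
  have key : ∀ {u}, T (pt z u) = {c, d, e} → End (Xs T z a b c d e f) 0 3 u := by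
    intro u hu
    have h5 := t.end02 hu
    rw [xs_swapAC T z a b c d e f] at h5
    exact end_perm h5
  refine ⟨key h1, key h2, fun h5 => hne (h5.pt z), fun u k0 k2 => ?_⟩
  have h5 := mem02 B.C.swapAC k0 k2 (B.le3 k0 k2 (Or.inr (Or.inr rfl)) (Or.inr rfl))
  rcases t.le_two (dist_pt z w) h1 (dist_pt z w') h2 hne (dist_pt z u) h5 with h6 | h6
  · exact Or.inl ((pt_iff (z := z)).1 h6)
  · exact Or.inr ((pt_iff (z := z)).1 h6)

/-- the ends `1|3` -/
theorem two13 (B : BetaZ U T z a b c d e f V) (h4 : ∀ z, (T z).ncard ≤ 4) {s s' : ℝ}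
    (h1 : T (pt z s) = {c, d, f}) (h2 : T (pt z s') = {c, d, f}) (hne : pt z s ≠ pt z s')
    (y : ∃ y, dist y z = 1 ∧ T y = {a, b, e}) : Two2 (Xs T z a b c d e f) 1 3 s s' := by
  have t := B.ty0 h4 y ⟨_, dist_pt z s, h1⟩
  refine ⟨t.end13 h1, t.end13 h2, fun h5 => hne (h5.pt z), fun u k0 k2 => ?_⟩
  have h5 := mem02 B.C.swapAC.swapEF k0 k2 (B.le3 k0 k2 (Or.inl rfl) (Or.inr rfl))
  rcases t.swap.le_two (dist_pt z s) h1 (dist_pt z s') h2 hne (dist_pt z u) h5 with h6 | h6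
  · exact Or.inl ((pt_iff (z := z)).1 h6)
  · exact Or.inr ((pt_iff (z := z)).1 h6)

/-- the ends `0|2`: one clean end and the special one -/
theorem twoV (B : BetaZ U T z a b c d e f V) (h4 : ∀ z, (T z).ncard ≤ 4) {s : ℝ}
    (h1 : T (pt z s) = {a, b, e}) (h3 : ∀ y, dist y z = 1 → T y = {a, b, e} → y = pt z s)
    (q : ∃ q, dist q z = 1 ∧ T q = {c, d, f}) : Two2 (Xs T z a b c d e f) 0 2 s V := by
  have t := B.ty0 h4 ⟨_, dist_pt z s, h1⟩ q
  obtain ⟨⟨ab, ac, ad, ae, af⟩, ⟨bc, bd, be, bf⟩, ⟨cd, ce, cf⟩, ⟨de, df⟩, ef⟩ := nd_ne B.C.nd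
  refine ⟨t.end02 h1, B.sp, fun h5 => B.hV ?_, fun u k0 k2 => ?_⟩
  · rw [← h5.pt z, h1]
    exact Set.ncard_eq_three.2 ⟨a, b, e, ab, ae, be, rfl⟩
  · rcases B.h3 u (Or.inl k2) with h5 | h5
    · exact Or.inl ((pt_iff (z := z)).1 (h3 _ (dist_pt z u) (mem02 B.C k0 k2 h5)))
    · exact Or.inr h5

/-- the palette of an end is one of the four palettes of ends -/
theorem four (B : BetaZ U T z a b c d e f V) (hv : EE T z v) :
    T v = {a, b, e} ∨ T v = {a, b, f} ∨ T v = {c, d, e} ∨ T v = {c, d, f} := by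
  have hsub : T z ∩ T v = {a, b} ∨ T z ∩ T v = {c, d} := by
    obtain ⟨o, ho⟩ := hv.1
    obtain ⟨p, hp⟩ := ho.arc B.C.irr
    have hTp : T p = T z ∩ T v := hp.2.self_of_nhdsWithin hp.1
    rcases B.C.pairs p hp.1 (by rw [hTp]; exact hp.2) (by rw [hTp]; exact inter_subset_left)
      with h1 | h1
    · exact Or.inl (hTp.symm.trans h1)
    · exact Or.inr (hTp.symm.trans h1)
  obtain ⟨g, hg, hT⟩ := exists_third hv.card_v (P := T z ∩ T v) inter_subset_right hv.card_i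
  have hgz : g ∉ T z := by
    intro h5
    exact hg ⟨h5, by rw [hT]; exact mem_insert _ _⟩
  have hgef := B.C.miss hgz
  rcases hsub with h1 | h1 <;> rw [h1] at hT <;> rcases hgef with rfl | rfl
  · left; rw [hT]; ext i; simp only [mem_insert_iff, mem_singleton_iff]; tauto
  · right; left; rw [hT]; ext i; simp only [mem_insert_iff, mem_singleton_iff]; tauto
  · right; right; left; rw [hT]; ext i; simp only [mem_insert_iff, mem_singleton_iff]; tauto
  · right; right; right; rw [hT]; ext i; simp only [mem_insert_iff, mem_singleton_iff]; tauto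

theorem opp_sep {w w' r r' : ℂ} (h : det r w * det r w' < 0) : ¬ (Opp w r r' ∧ Opp w' r r') := by
  rintro ⟨⟨-, h1⟩, ⟨-, h2⟩⟩
  have h3 : 0 < det r w * det r r' * (det r w' * det r r') := mul_pos h1 h2
  have h4 : 0 ≤ det r r' ^ 2 := sq_nonneg _
  nlinarith [mul_nonpos_of_nonpos_of_nonneg h.le h4]

/-- one `abe`-point and two points of the three other palettes -/
theorem key12 (B : BetaZ U T z a b c d e f V) (h4 : ∀ z, (T z).ncard ≤ 4) (S : Sep22)
    (hv : dist v z = 1) (Tv : T v = {a, b, e}) (hq : dist q z = 1) (Tq : T q = {c, d, f})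
    (hq' : dist q' z = 1) (Tq' : T q' = {c, d, f}) (hne : q ≠ q')
    (h1 : ∀ y, dist y z = 1 → T y = {a, b, e} → y = v)
    (hA : TwoP T z {a, b, f}) (hC : TwoP T z {c, d, e}) :
    det (v - z) (q - z) * det (v - z) (q' - z) < 0 ∧
      Bad22 (fun z v => EE T z v ∧ T v = {a, b, f}) (fun z q => EE T z q ∧ T q = {a, b, f}ᶜ) z := by
  obtain ⟨w, w', hw, hwd, hwd', Tw, Tw'⟩ := hA
  obtain ⟨r, r', hr, hrd, hrd', Tr, Tr'⟩ := hC
  obtain ⟨s, rfl⟩ := exists_pt hv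
  obtain ⟨p, rfl⟩ := exists_pt hq
  obtain ⟨p', rfl⟩ := exists_pt hq'
  obtain ⟨w, rfl⟩ := exists_pt hwd
  obtain ⟨w', rfl⟩ := exists_pt hwd'
  obtain ⟨r, rfl⟩ := exists_pt hrd
  obtain ⟨r', rfl⟩ := exists_pt hrd'
  have k02 := B.twoV h4 Tv h1 ⟨_, hq, Tq⟩
  have k13 := B.two13 h4 Tq Tq' hne ⟨_, hv, Tv⟩
  have k12 := B.two12 h4 Tw Tw' hw ⟨_, hrd, Tr⟩
  have k03 := B.two03 h4 Tr Tr' hr ⟨_, hwd, Tw⟩
  have s1 := sep_det S B.wrd k02 k13 k12 k03 z
  have s2 := sep_det S (wrd_perm B.wrd).1 (two2_perm (Equiv.swap 0 1) k12)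
    (two2_perm (Equiv.swap 0 1) k03) (two2_perm (Equiv.swap 0 1) k02)
    (two2_perm (Equiv.swap 0 1) k13) z
  have s3 := sep_det S (wrd_perm B.wrd).2 (two2_perm (Equiv.swap 2 3) k03)
    (two2_perm (Equiv.swap 2 3) k12) (two2_perm (Equiv.swap 2 3) k13)
    (two2_perm (Equiv.swap 2 3) k02) z
  have t := B.ty1 h4 ⟨_, hwd, Tw⟩ ⟨_, hrd, Tr⟩
  have hc : ({a, b, f} : Set (Fin 6))ᶜ = {c, d, e} := compl_abe t.C
  exact ⟨s1, pt z w, pt z w', pt z r, pt z r', ⟨t.ee hwd Tw, Tw⟩, ⟨t.ee hwd' Tw', Tw'⟩, hw,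
    ⟨t.swap.ee hrd Tr, Tr.trans hc.symm⟩, ⟨t.swap.ee hrd' Tr', Tr'.trans hc.symm⟩, hr,
    opp_sep s3, opp_sep s2⟩

/-- **(A), (B), (C) at a centre with one special end.** -/
theorem tab (B : BetaZ U T z a b c d e f V) (h4 : ∀ z, (T z).ncard ≤ 4) (L2 : L2W) (L3 : L3W) (S : Sep22)
    (K : T0 T z a b c d e f) : Tab T z := by
  -- palettes of the partner
  have c1 : ({a, b, e} : Set (Fin 6))ᶜ = {c, d, f} := compl_abe B.C
  have c2 : ({a, b, f} : Set (Fin 6))ᶜ = {c, d, e} := compl_abe B.C.swapEF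
  have c3 : ({c, d, e} : Set (Fin 6))ᶜ = {a, b, f} := compl_abe B.C.swapAC
  have c4 : ({c, d, f} : Set (Fin 6))ᶜ = {a, b, e} := compl_abe B.C.swapAC.swapEF
  -- the type with the palettes `cdf | abe` has two points `cdf`
  have two : ∀ {v q : ℂ}, EE T z v → T v = {a, b, e} → EE T z q → T q = {c, d, f} →
      (∀ s, EE T z s ∧ T s = {c, d, f} → s = q) → False := by
    intro v q hv Tv hq Tq h
    obtain ⟨⟨y, y', hne, hy, hy', Ty, Ty'⟩, -⟩ := K v q hv.dist Tv hq.dist Tq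
    have t := (B.ty0 h4 ⟨v, hv.dist, Tv⟩ ⟨q, hq.dist, Tq⟩).swap
    exact hne ((h y ⟨t.ee hy Ty, Ty⟩).trans (h y' ⟨t.ee hy' Ty', Ty'⟩).symm)
  -- one `abe`, two `cdf`
  have one : ∀ {v q q' : ℂ}, EE T z v → T v = {a, b, e} → EE T z q → T q = {c, d, f} →
      EE T z q' → T q' = {c, d, f} → q ≠ q' → (∀ s, EE T z s ∧ T s = {a, b, e} → s = v) →
      det (v - z) (q - z) * det (v - z) (q' - z) < 0 ∧
        Bad22 (fun z v => EE T z v ∧ T v = {a, b, f})
          (fun z q => EE T z q ∧ T q = {a, b, f}ᶜ) z := by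
    intro v q q' hv Tv hq Tq hq' Tq' hne h
    have t := B.ty0 h4 ⟨v, hv.dist, Tv⟩ ⟨q, hq.dist, Tq⟩
    obtain ⟨-, ⟨y, y', hn, hy, hy', Ty, Ty'⟩ | ⟨hA, hC⟩⟩ := K v q hv.dist Tv hq.dist Tq
    · exact absurd ((h y ⟨t.ee hy Ty, Ty⟩).trans (h y' ⟨t.ee hy' Ty', Ty'⟩).symm) hn
    · exact B.key12 h4 S hv.dist Tv hq.dist Tq hq'.dist Tq' hne
        (fun y hy Ty => h y ⟨t.ee hy Ty, Ty⟩) hA hC
  -- type 1
  have t1 : ∀ {v q q' : ℂ}, EE T z v → T v = {a, b, f} → EE T z q → T q = {c, d, e} →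
      EE T z q' → T q' = {c, d, e} → q ≠ q' → (∀ s, EE T z s ∧ T s = {a, b, f} → s = v) →
      det (v - z) (q - z) * det (v - z) (q' - z) < 0 ∧ ¬ Opp (v - z) (q - z) (q' - z) := by
    intro v q q' hv Tv hq Tq hq' Tq' hne h
    have t := B.ty1 h4 ⟨v, hv.dist, Tv⟩ ⟨q, hq.dist, Tq⟩
    exact t.tri L3 (fun u k0 k2 => B.le3 (l := 1) (m := 2) k0 k2 (Or.inl rfl) (Or.inl rfl))
      (fun u k0 k2 => B.le3 (l := 0) (m := 3) k0 k2 (Or.inr (Or.inr rfl)) (Or.inr rfl))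
      hv.dist Tv hq.dist Tq hq'.dist Tq' hne (fun y hy Ty => h y ⟨t.ee hy Ty, Ty⟩)
  have t2 : ∀ {v q q' : ℂ}, EE T z v → T v = {c, d, e} → EE T z q → T q = {a, b, f} →
      EE T z q' → T q' = {a, b, f} → q ≠ q' → (∀ s, EE T z s ∧ T s = {c, d, e} → s = v) →
      det (v - z) (q - z) * det (v - z) (q' - z) < 0 ∧ ¬ Opp (v - z) (q - z) (q' - z) := by
    intro v q q' hv Tv hq Tq hq' Tq' hne h
    have t := (B.ty1 h4 ⟨q, hq.dist, Tq⟩ ⟨v, hv.dist, Tv⟩).swap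
    exact t.tri L3 (fun u k0 k2 => B.le3 (l := 0) (m := 3) k0 k2 (Or.inr (Or.inr rfl)) (Or.inr rfl))
      (fun u k0 k2 => B.le3 (l := 1) (m := 2) k0 k2 (Or.inl rfl) (Or.inl rfl))
      hv.dist Tv hq.dist Tq hq'.dist Tq' hne (fun y hy Ty => h y ⟨t.ee hy Ty, Ty⟩)
  refine ⟨?_, ?_, ?_⟩
  · rintro X v q q' ⟨hv, rfl⟩ ⟨hq, Tq⟩ ⟨hq', Tq'⟩ hne h1 h2
    rcases B.four hv with Tv | Tv | Tv | Tv <;> rw [Tv] at Tq Tq' h1 h2
    · rw [c1] at Tq Tq'
      exact (one hv Tv hq Tq hq' Tq' hne h1).1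
    · rw [c2] at Tq Tq'
      exact (t1 hv Tv hq Tq hq' Tq' hne h1).1
    · rw [c3] at Tq Tq'
      exact (t2 hv Tv hq Tq hq' Tq' hne h1).1
    · rw [c4] at Tq Tq'
      exact (two hq Tq hv Tv h1).elim
  · rintro X v q ⟨hv, rfl⟩ ⟨hq, Tq⟩ h1 h2
    exfalso
    rcases B.four hv with Tv | Tv | Tv | Tv <;> rw [Tv] at Tq h1 h2
    · rw [c1] at Tq h2
      exact two hv Tv hq Tq h2
    · rw [c2] at Tq h2
      have t := B.ty1 h4 ⟨v, hv.dist, Tv⟩ ⟨q, hq.dist, Tq⟩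
      exact t.no11 L2 (fun u k0 k2 => B.le3 (l := 1) (m := 2) k0 k2 (Or.inl rfl) (Or.inl rfl))
        (fun u k0 k2 => B.le3 (l := 0) (m := 3) k0 k2 (Or.inr (Or.inr rfl)) (Or.inr rfl))
        hv.dist Tv hq.dist Tq (fun y hy Ty => h1 y ⟨t.ee hy Ty, Ty⟩)
        (fun y hy Ty => h2 y ⟨t.swap.ee hy Ty, Ty⟩)
    · rw [c3] at Tq h2
      have t := (B.ty1 h4 ⟨q, hq.dist, Tq⟩ ⟨v, hv.dist, Tv⟩).swap
      exact t.no11 L2 (fun u k0 k2 => B.le3 (l := 0) (m := 3) k0 k2 (Or.inr (Or.inr rfl)) (Or.inr rfl))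
        (fun u k0 k2 => B.le3 (l := 1) (m := 2) k0 k2 (Or.inl rfl) (Or.inl rfl))
        hv.dist Tv hq.dist Tq (fun y hy Ty => h1 y ⟨t.ee hy Ty, Ty⟩)
        (fun y hy Ty => h2 y ⟨t.swap.ee hy Ty, Ty⟩)
    · rw [c4] at Tq
      exact two hq Tq hv Tv h1
  · rintro X v q q' ⟨hv, rfl⟩ ⟨hq, Tq⟩ ⟨hq', Tq'⟩ hne h1 h2 ho
    rcases B.four hv with Tv | Tv | Tv | Tv <;> rw [Tv] at Tq Tq' h1 h2
    · rw [c1] at Tq Tq'
      exact ⟨_, (one hv Tv hq Tq hq' Tq' hne h1).2⟩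
    · rw [c2] at Tq Tq'
      exact absurd ho (t1 hv Tv hq Tq hq' Tq' hne h1).2
    · rw [c3] at Tq Tq'
      exact absurd ho (t2 hv Tv hq Tq hq' Tq' hne h1).2
    · rw [c4] at Tq Tq'
      exact (two hq Tq hv Tv h1).elim

/-- **(D)**: from palettes to ends -/
theorem has22 (B : BetaZ U T z a b c d e f V) (h4 : ∀ z, (T z).ncard ≤ 4)
    (K : HasP T z a b c d e f) : Has22 T z := by
  rcases K with ⟨⟨y, y', hy, hyd, hyd', Ty, Ty'⟩, p, p', hp, hpd, hpd', Tp, Tp'⟩ |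
    ⟨⟨y, y', hy, hyd, hyd', Ty, Ty'⟩, p, p', hp, hpd, hpd', Tp, Tp'⟩
  · have t := B.ty0 h4 ⟨y, hyd, Ty⟩ ⟨p, hpd, Tp⟩
    have hc : ({a, b, e} : Set (Fin 6))ᶜ = {c, d, f} := compl_abe t.C
    exact ⟨_, y, y', p, p', ⟨t.ee hyd Ty, Ty⟩, ⟨t.ee hyd' Ty', Ty'⟩, hy,
      ⟨t.swap.ee hpd Tp, Tp.trans hc.symm⟩, ⟨t.swap.ee hpd' Tp', Tp'.trans hc.symm⟩, hp⟩
  · have t := B.ty1 h4 ⟨y, hyd, Ty⟩ ⟨p, hpd, Tp⟩
    have hc : ({a, b, f} : Set (Fin 6))ᶜ = {c, d, e} := compl_abe t.C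
    exact ⟨_, y, y', p, p', ⟨t.ee hyd Ty, Ty⟩, ⟨t.ee hyd' Ty', Ty'⟩, hy,
      ⟨t.swap.ee hpd Tp, Tp.trans hc.symm⟩, ⟨t.swap.ee hpd' Tp', Tp'.trans hc.symm⟩, hp⟩

end BetaZ

end Vale.Agent.P032.S5.H378
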